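import Mathlib
import Vale.Agent.P333.Model
import Vale.Agent.P333.H705.GrDefs

set_option autoImplicit false

/-!
P333: blow-up of the letters. Every letter is replaced by a block of `k` letters; all lengths and all
overlaps are multiplied by `k`, and the runs of the greedy algorithm correspond to each other.
-/

namespace Vale.Agent.P333.H752

open List

/-- the block of the letter `a` -/
def blk (k a : ℕ) : List ℕ := (List.range k).map fun i => a * k + i

/-- the blow-up of a string -/
def Phi (k : ℕ) (s : List ℕ) : List ℕ := s.flatMap (blk k)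

@[simp] theorem blk_length (k a : ℕ) : (blk k a).length = k := by
  simp [blk]

@[simp] theorem Phi_nil (k : ℕ) : Phi k [] = [] := rfl

theorem Phi_cons (k a : ℕ) (s : List ℕ) : Phi k (a :: s) = blk k a ++ Phi k s := by
  simp [Phi]

theorem Phi_append (k : ℕ) (s t : List ℕ) : Phi k (s ++ t) = Phi k s ++ Phi k t := by
  simp [Phi]

@[simp] theorem Phi_length (k : ℕ) (s : List ℕ) : (Phi k s).length = k * s.length := by
  induction s with
  | nil => simp
  | cons a s ih =>
    rw [Phi_cons, length_append, blk_length, ih, length_cons]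
    ring

theorem Phi_take (k m : ℕ) (s : List ℕ) : (Phi k s).take (k * m) = Phi k (s.take m) := by
  rcases Nat.lt_or_ge s.length m with h | h
  · rw [List.take_of_length_le (by rw [Phi_length]; exact Nat.mul_le_mul_left k h.le),
      List.take_of_length_le h.le]
  · conv_lhs => rw [← List.take_append_drop m s]
    rw [Phi_append]
    apply List.take_left'
    rw [Phi_length, List.length_take, min_eq_left h]

theorem Phi_drop (k m : ℕ) (s : List ℕ) : (Phi k s).drop (k * m) = Phi k (s.drop m) := by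
  rcases Nat.lt_or_ge s.length m with h | h
  · rw [List.drop_of_length_le (by rw [Phi_length]; exact Nat.mul_le_mul_left k h.le),
      List.drop_of_length_le h.le]
    rfl
  · conv_lhs => rw [← List.take_append_drop m s]
    rw [Phi_append]
    apply List.drop_left'
    rw [Phi_length, List.length_take, min_eq_left h]

theorem blk_inj {k a b : ℕ} (hk : 1 ≤ k) (h : blk k a = blk k b) : a = b := by
  have h1 : (blk k a)[0]? = (blk k b)[0]? := by rw [h]
  unfold blk at h1
  rw [List.getElem?_map, List.getElem?_map, List.getElem?_range (by omega)] at h1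
  simp only [Option.map_some, Option.some.injEq, Nat.add_zero] at h1
  exact Nat.eq_of_mul_eq_mul_right (by omega) h1

theorem Phi_inj {k : ℕ} (hk : 1 ≤ k) : ∀ {s t : List ℕ}, Phi k s = Phi k t → s = t := by
  intro s
  induction s with
  | nil =>
    intro t h
    have := congrArg List.length h
    rw [Phi_length, Phi_length] at this
    simp only [length_nil, Nat.mul_zero] at this
    have h0 : t.length = 0 := by
      rcases Nat.eq_zero_or_pos t.length with h1 | h1
      · exact h1
      · have := Nat.mul_pos (by omega : 0 < k) h1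
        omega
    exact (List.length_eq_zero_iff.1 h0).symm
  | cons a s ih =>
    intro t h
    cases t with
    | nil =>
      have := congrArg List.length h
      rw [Phi_length, Phi_length] at this
      simp only [length_nil, Nat.mul_zero, length_cons] at this
      have := Nat.mul_pos (by omega : 0 < k) (Nat.succ_pos s.length)
      simp only [Nat.succ_eq_add_one] at this
      omega
    | cons b t =>
      rw [Phi_cons, Phi_cons] at h
      obtain ⟨h1, h2⟩ := List.append_inj h (by simp)
      rw [blk_inj hk h1, ih h2]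

/-- the letters of a blow-up -/
theorem Phi_getElem? {k : ℕ} (s : List ℕ) (j c : ℕ) (h : (Phi k s)[j]? = some c) :
    c % k = j % k := by
  induction s generalizing j with
  | nil => simp at h
  | cons a s ih =>
    rw [Phi_cons] at h
    rcases Nat.lt_or_ge j k with hj | hj
    · rw [List.getElem?_append_left (by simpa using hj)] at h
      unfold blk at h
      rw [List.getElem?_map, List.getElem?_range hj] at h
      simp only [Option.map_some, Option.some.injEq] at h
      rw [← h, Nat.add_comm, Nat.add_mul_mod_self_right]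
    · rw [List.getElem?_append_right (by simpa using hj), blk_length] at h
      rw [ih (j - k) h]
      conv_rhs => rw [← Nat.sub_add_cancel hj]
      rw [Nat.add_mod_right]

/-- a part of a blow-up which is also the beginning of a blow-up starts at a block -/
theorem Phi_split {k : ℕ} (hk : 1 ≤ k) {x y p w q : List ℕ} (h : p ++ w ++ q = Phi k x)
    (hw : w <+: Phi k y) (hne : w ≠ []) : ∃ m, p = Phi k (x.take m) ∧ m ≤ x.length ∧
      w ++ q = Phi k (x.drop m) := by
  have h0 : w[0]? = (Phi k y)[0]? := by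
    obtain ⟨r, hr⟩ := hw
    rw [← hr, List.getElem?_append_left (List.length_pos_of_ne_nil hne)]
  obtain ⟨c, hc⟩ : ∃ c, w[0]? = some c :=
    ⟨_, List.getElem?_eq_getElem (List.length_pos_of_ne_nil hne)⟩
  have h1 : c % k = 0 := by
    rw [h0] at hc
    simpa using Phi_getElem? y 0 c hc
  have h2 : (Phi k x)[p.length]? = some c := by
    rw [← h, List.append_assoc, List.getElem?_append_right le_rfl, Nat.sub_self,
      List.getElem?_append_left (List.length_pos_of_ne_nil hne)]
    exact hc
  have h3 : p.length % k = 0 := by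
    rw [← Phi_getElem? x _ c h2]
    exact h1
  obtain ⟨m, hm⟩ := Nat.dvd_of_mod_eq_zero h3
  refine ⟨m, ?_, ?_, ?_⟩
  · rw [← Phi_take, ← h, List.append_assoc, ← hm]
    exact (List.take_left' rfl).symm
  · have h4 : p.length ≤ k * x.length := by
      rw [← Phi_length, ← h]
      simp only [List.length_append]
      omega
    rw [hm] at h4
    exact Nat.le_of_mul_le_mul_left h4 (by omega)
  · rw [← Phi_drop, ← h, List.append_assoc, ← hm]
    exact (List.drop_left' rfl).symm

theorem Phi_prefix {k : ℕ} {x y : List ℕ} (h : x <+: y) : Phi k x <+: Phi k y := by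
  obtain ⟨r, rfl⟩ := h
  rw [Phi_append]
  exact List.prefix_append _ _

theorem Phi_suffix {k : ℕ} {x y : List ℕ} (h : x <:+ y) : Phi k x <:+ Phi k y := by
  obtain ⟨r, rfl⟩ := h
  rw [Phi_append]
  exact List.suffix_append _ _

theorem Phi_infix {k : ℕ} {x y : List ℕ} (h : x <:+: y) : Phi k x <:+: Phi k y := by
  obtain ⟨p, q, rfl⟩ := h
  rw [Phi_append, Phi_append]
  exact ⟨_, _, rfl⟩

/-- a common suffix and prefix of blow-ups is a blow-up -/
theorem Phi_overlap {k : ℕ} (hk : 1 ≤ k) {x y w : List ℕ} (h1 : w <:+ Phi k x)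
    (h2 : w <+: Phi k y) : ∃ v, w = Phi k v ∧ v <:+ x ∧ v <+: y := by
  rcases eq_or_ne w [] with rfl | hne
  · exact ⟨[], rfl, List.nil_suffix, List.nil_prefix⟩
  · obtain ⟨p, hp⟩ := h1
    obtain ⟨m, -, hmx, h4⟩ := Phi_split hk (p := p) (w := w) (q := []) (x := x) (y := y)
      (by rw [List.append_nil]; exact hp) h2 hne
    rw [List.append_nil] at h4
    refine ⟨x.drop m, h4, List.drop_suffix _ _, ?_⟩
    have h5 : w = (Phi k y).take w.length := (List.prefix_iff_eq_take.1 h2)
    have h6 : w.length = k * (x.drop m).length := by rw [h4, Phi_length]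
    rw [h6, Phi_take, h4] at h5
    have h7 := Phi_inj hk h5
    rw [h7]
    exact List.take_prefix _ _

theorem Phi_infix_inv {k : ℕ} (hk : 1 ≤ k) {x y : List ℕ} (h : Phi k x <:+: Phi k y) :
    x <:+: y := by
  rcases eq_or_ne x [] with rfl | hne
  · exact List.nil_infix
  · obtain ⟨p, q, hpq⟩ := h
    have hne' : Phi k x ≠ [] := by
      intro h
      exact hne (Phi_inj hk (s := x) (t := []) (by rw [h]; rfl))
    obtain ⟨m, -, hmy, h4⟩ := Phi_split hk (p := p) (w := Phi k x) (q := q) (x := y) (y := x)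
      hpq List.prefix_rfl hne'
    have h5 : Phi k x = (Phi k (y.drop m)).take (k * x.length) := by
      rw [← h4]
      exact (List.take_left' (by rw [Phi_length])).symm
    rw [Phi_take] at h5
    have h7 := Phi_inj hk h5
    rw [h7]
    exact (List.take_prefix _ _).isInfix.trans (List.drop_suffix _ _).isInfix

/-! ### Overlaps -/

open Greedy

theorem isOverlap_blow {k : ℕ} (hk : 1 ≤ k) {x y : List ℕ} {m : ℕ} (h : IsOverlap x y m) :
    IsOverlap (Phi k x) (Phi k y) (k * m) := by
  obtain ⟨⟨w, hw, h1, h2⟩, h3⟩ := h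
  refine ⟨⟨Phi k w, by rw [Phi_length, hw], Phi_suffix h1, Phi_prefix h2⟩, ?_⟩
  rintro l ⟨w', hw', h1', h2'⟩
  obtain ⟨v, rfl, h4, h5⟩ := Phi_overlap hk h1' h2'
  rw [← hw', Phi_length]
  exact Nat.mul_le_mul_left k (h3 ⟨v, rfl, h4, h5⟩)

/-- every pair has a longest overlap -/
theorem exists_isOverlap (x y : List ℕ) : ∃ m, IsOverlap x y m := by
  have hne : {m : ℕ | ∃ w : List ℕ, w.length = m ∧ w <:+ x ∧ w <+: y}.Nonempty :=
    ⟨0, [], rfl, List.nil_suffix, List.nil_prefix⟩
  have hb : BddAbove {m : ℕ | ∃ w : List ℕ, w.length = m ∧ w <:+ x ∧ w <+: y} := by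
    refine ⟨x.length, ?_⟩
    rintro m ⟨w, rfl, h1, -⟩
    exact h1.length_le
  exact ⟨_, Nat.sSup_mem hne hb, fun m hm => le_csSup hb hm⟩

theorem isOverlap_unique {x y : List ℕ} {m l : ℕ} (h : IsOverlap x y m) (h' : IsOverlap x y l) :
    m = l := IsGreatest.unique h h'

theorem isOverlap_blow_inv {k : ℕ} (hk : 1 ≤ k) {x y : List ℕ} {l : ℕ}
    (h : IsOverlap (Phi k x) (Phi k y) l) : ∃ m, l = k * m ∧ IsOverlap x y m := by
  obtain ⟨m, hm⟩ := exists_isOverlap x y
  exact ⟨m, isOverlap_unique h (isOverlap_blow hk hm), hm⟩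

/-! ### Families -/

theorem exists_map {k : ℕ} : ∀ L : List (List ℕ), (∀ a ∈ L, ∃ b, a = Phi k b) →
    ∃ L0 : List (List ℕ), L = L0.map (Phi k) := by
  intro L
  induction L with
  | nil => exact fun _ => ⟨[], rfl⟩
  | cons a L ih =>
    intro h
    obtain ⟨b, hb⟩ := h a (List.mem_cons_self)
    obtain ⟨L0, hL0⟩ := ih fun c hc => h c (List.mem_cons_of_mem _ hc)
    exact ⟨b :: L0, by rw [hb, hL0]; rfl⟩

theorem perm_map_cons₂ {k : ℕ} (hk : 1 ≤ k) {F : List (List ℕ)} {z w : List ℕ}
    {R' : List (List ℕ)} (h : (F.map (Phi k)).Perm (z :: w :: R')) :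
    ∃ z0 w0 R0, z = Phi k z0 ∧ w = Phi k w0 ∧ R' = R0.map (Phi k) ∧ F.Perm (z0 :: w0 :: R0) := by
  have hinj : Function.Injective (Phi k) := fun _ _ h => Phi_inj hk h
  obtain ⟨L0, hL0⟩ := exists_map (z :: w :: R') (by
    intro a ha
    obtain ⟨b, _, hb⟩ := List.mem_map.1 (h.mem_iff.2 ha)
    exact ⟨b, hb.symm⟩)
  cases L0 with
  | nil => simp at hL0
  | cons z0 L0 =>
    cases L0 with
    | nil => simp at hL0
    | cons w0 R0 =>
      simp only [List.map_cons, List.cons.injEq] at hL0
      refine ⟨z0, w0, R0, hL0.1, hL0.2.1, hL0.2.2, ?_⟩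
      rw [hL0.1, hL0.2.1, hL0.2.2] at h
      have h2 : (F.map (Phi k)).Perm ((z0 :: w0 :: R0).map (Phi k)) := by simpa using h
      exact (List.map_perm_map_iff hinj).1 h2

theorem merge_blow (k m : ℕ) (x y : List ℕ) :
    (Phi k x).take ((Phi k x).length - k * m) ++ Phi k y = Phi k (x.take (x.length - m) ++ y) := by
  rw [Phi_length, ← Nat.mul_sub, Phi_take, Phi_append]

theorem step_blow {k : ℕ} (hk : 1 ≤ k) {F F' : List (List ℕ)} (h : Step F F') :
    Step (F.map (Phi k)) (F'.map (Phi k)) := by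
  obtain ⟨x, y, R, m, h1, h2, h3, rfl⟩ := h
  refine ⟨Phi k x, Phi k y, R.map (Phi k), k * m, ?_, isOverlap_blow hk h2, ?_, ?_⟩
  · simpa using h1.map (Phi k)
  · intro z w R' l hp hl
    obtain ⟨z0, w0, R0, rfl, rfl, rfl, hp0⟩ := perm_map_cons₂ hk hp
    obtain ⟨m', rfl, hm'⟩ := isOverlap_blow_inv hk hl
    exact Nat.mul_le_mul_left k (h3 z0 w0 R0 m' hp0 hm')
  · rw [List.map_cons, merge_blow]

theorem step_blow_inv {k : ℕ} (hk : 1 ≤ k) {F G : List (List ℕ)} (h : Step (F.map (Phi k)) G) :
    ∃ F', G = F'.map (Phi k) ∧ Step F F' := by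
  obtain ⟨x, y, R, l, h1, h2, h3, rfl⟩ := h
  obtain ⟨x0, y0, R0, rfl, rfl, rfl, hp⟩ := perm_map_cons₂ hk h1
  obtain ⟨m, rfl, hm⟩ := isOverlap_blow_inv hk h2
  refine ⟨(x0.take (x0.length - m) ++ y0) :: R0, ?_, x0, y0, R0, m, hp, hm, ?_, rfl⟩
  · rw [List.map_cons, merge_blow]
  · intro z w R' l' hp' hl'
    have h4 := h3 (Phi k z) (Phi k w) (R'.map (Phi k)) (k * l') (by simpa using hp'.map (Phi k))
      (isOverlap_blow hk hl')
    exact Nat.le_of_mul_le_mul_left h4 (by omega)

theorem reduced_blow {k : ℕ} (hk : 1 ≤ k) {S F : List (List ℕ)} (h : Reduced S F) :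
    Reduced (S.map (Phi k)) (F.map (Phi k)) := by
  have hinj : Function.Injective (Phi k) := fun _ _ h => Phi_inj hk h
  refine ⟨h.1.map hinj, ?_⟩
  intro s
  constructor
  · intro hs
    obtain ⟨s0, hs0, rfl⟩ := List.mem_map.1 hs
    obtain ⟨h1, h2⟩ := (h.2 s0).1 hs0
    refine ⟨List.mem_map_of_mem h1, ?_⟩
    intro t ht hst
    obtain ⟨t0, ht0, rfl⟩ := List.mem_map.1 ht
    rw [h2 t0 ht0 (Phi_infix_inv hk hst)]
  · rintro ⟨hs, hmax⟩
    obtain ⟨s0, hs0, rfl⟩ := List.mem_map.1 hs
    refine List.mem_map_of_mem ((h.2 s0).2 ⟨hs0, fun t0 ht0 hst => ?_⟩)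
    exact hinj (hmax (Phi k t0) (List.mem_map_of_mem ht0) (Phi_infix hst))

theorem reduced_blow_inv {k : ℕ} (hk : 1 ≤ k) {S G : List (List ℕ)}
    (h : Reduced (S.map (Phi k)) G) : ∃ F, G = F.map (Phi k) ∧ Reduced S F := by
  have hinj : Function.Injective (Phi k) := fun _ _ h => Phi_inj hk h
  obtain ⟨F, rfl⟩ := exists_map G (by
    intro a ha
    obtain ⟨b, _, hb⟩ := List.mem_map.1 ((h.2 a).1 ha).1
    exact ⟨b, hb.symm⟩)
  refine ⟨F, rfl, List.Nodup.of_map _ h.1, ?_⟩
  intro s
  have h2 := h.2 (Phi k s)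
  rw [List.mem_map_of_injective hinj, List.mem_map_of_injective hinj] at h2
  rw [h2]
  constructor
  · rintro ⟨h3, h4⟩
    exact ⟨h3, fun t ht hst => hinj (h4 _ (List.mem_map_of_mem ht) (Phi_infix hst))⟩
  · rintro ⟨h3, h4⟩
    refine ⟨h3, fun t ht hst => ?_⟩
    obtain ⟨t0, ht0, rfl⟩ := List.mem_map.1 ht
    rw [h4 t0 ht0 (Phi_infix_inv hk hst)]

/-- a run of the greedy algorithm gives a run for the blow-up -/
theorem output_blow {k : ℕ} (hk : 1 ≤ k) {S : List (List ℕ)} {t : List ℕ} (h : Output S t) :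
    Output (S.map (Phi k)) (Phi k t) := by
  obtain ⟨F, h1, h2⟩ := h
  refine ⟨F.map (Phi k), reduced_blow hk h1, ?_⟩
  have key : ∀ G, Relation.ReflTransGen Step F G →
      Relation.ReflTransGen Step (F.map (Phi k)) (G.map (Phi k)) := by
    intro G h
    induction h with
    | refl => exact Relation.ReflTransGen.refl
    | tail _ hstep ih => exact ih.tail (step_blow hk hstep)
  have h3 := key _ h2
  simpa using h3

/-- every output for the blow-up is the blow-up of an output -/
theorem output_blow_inv {k : ℕ} (hk : 1 ≤ k) {S : List (List ℕ)} {t' : List ℕ}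
    (h : Output (S.map (Phi k)) t') : ∃ t, t' = Phi k t ∧ Output S t := by
  obtain ⟨G, h1, h2⟩ := h
  obtain ⟨F, rfl, h3⟩ := reduced_blow_inv hk h1
  have key : ∀ G', Relation.ReflTransGen Step (F.map (Phi k)) G' →
      ∃ F', G' = F'.map (Phi k) ∧ Relation.ReflTransGen Step F F' := by
    intro G' h
    induction h with
    | refl => exact ⟨F, rfl, Relation.ReflTransGen.refl⟩
    | tail _ hstep ih =>
      obtain ⟨F', rfl, hF'⟩ := ih
      obtain ⟨F'', rfl, hF''⟩ := step_blow_inv hk hstep
      exact ⟨F'', rfl, hF'.tail hF''⟩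
  obtain ⟨F', h4, h5⟩ := key _ h2
  cases F' with
  | nil => simp at h4
  | cons t F' =>
    cases F' with
    | nil =>
      simp only [List.map_cons, List.map_nil, List.cons.injEq, and_true] at h4
      exact ⟨t, h4, F, h3, h5⟩
    | cons _ _ => simp at h4

/-! ### The optimum -/

theorem opt_spec (S : List (List ℕ)) : ∃ T, IsSuperstring S T ∧ T.length = opt S := by
  have hne : {n : ℕ | ∃ T : List ℕ, IsSuperstring S T ∧ T.length = n}.Nonempty := by
    refine ⟨_, S.flatten, ?_, rfl⟩
    intro s hs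
    obtain ⟨A, B, rfl⟩ := List.append_of_mem hs
    exact ⟨A.flatten, B.flatten, by simp⟩
  exact Nat.sInf_mem hne

theorem opt_le {S : List (List ℕ)} {T : List ℕ} (h : IsSuperstring S T) : opt S ≤ T.length :=
  Nat.sInf_le ⟨T, h, rfl⟩

theorem opt_blow_le (k : ℕ) (S : List (List ℕ)) : opt (S.map (Phi k)) ≤ k * opt S := by
  obtain ⟨T, h1, h2⟩ := opt_spec S
  rw [← h2, ← Phi_length]
  refine opt_le ?_
  intro s hs
  obtain ⟨s0, hs0, rfl⟩ := List.mem_map.1 hs
  exact Phi_infix (h1 s0 hs0)

theorem le_opt_blow (k : ℕ) {S : List (List ℕ)} {s : List ℕ} (hs : s ∈ S) :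
    k * s.length ≤ opt (S.map (Phi k)) := by
  obtain ⟨T, h1, h2⟩ := opt_spec (S.map (Phi k))
  rw [← h2, ← Phi_length]
  exact (h1 _ (List.mem_map_of_mem hs)).length_le

/-! ### Consequences -/

/-- one instance with ratio above `a / b` gives such instances with arbitrarily large optimum -/
theorem exists_large {a b : ℕ} {S : List (List ℕ)} {t s : List ℕ} (hs : s ∈ S) (hne : s ≠ [])
    (h1 : Reduced S S) (h2 : Output S t) (h3 : a * opt S < b * t.length) (n : ℕ) :
    ∃ (S' : List (List ℕ)) (t' : List ℕ), Reduced S' S' ∧ Output S' t' ∧ n ≤ opt S' ∧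
      a * opt S' < b * t'.length := by
  have hl : 1 ≤ s.length := List.length_pos_of_ne_nil hne
  refine ⟨S.map (Phi (n + 1)), Phi (n + 1) t, reduced_blow (by omega) h1,
    output_blow (by omega) h2, ?_, ?_⟩
  · have := le_opt_blow (n + 1) hs
    nlinarith
  · have h4 := opt_blow_le (n + 1) S
    rw [Phi_length]
    calc a * opt (S.map (Phi (n + 1))) ≤ a * ((n + 1) * opt S) := Nat.mul_le_mul_left a h4
      _ = (n + 1) * (a * opt S) := by ring
      _ < (n + 1) * (b * t.length) := Nat.mul_lt_mul_of_pos_left h3 (by omega)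
      _ = b * ((n + 1) * t.length) := by ring

/-- the same for instances on which all outputs are long -/
theorem exists_large_all {a b : ℕ} {S : List (List ℕ)} {s : List ℕ} (hs : s ∈ S) (hne : s ≠ [])
    (h1 : Reduced S S) (h2 : ∃ t, Output S t) (h3 : ∀ t, Output S t → a * opt S < b * t.length)
    (n : ℕ) :
    ∃ (S' : List (List ℕ)), Reduced S' S' ∧ (∃ t, Output S' t) ∧ n ≤ opt S' ∧
      ∀ t, Output S' t → a * opt S' < b * t.length := by
  have hl : 1 ≤ s.length := List.length_pos_of_ne_nil hne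
  obtain ⟨t, ht⟩ := h2
  refine ⟨S.map (Phi (n + 1)), reduced_blow (by omega) h1, ⟨_, output_blow (by omega) ht⟩, ?_, ?_⟩
  · have := le_opt_blow (n + 1) hs
    nlinarith
  · intro t' ht'
    obtain ⟨t, rfl, ht⟩ := output_blow_inv (by omega) ht'
    have h4 := opt_blow_le (n + 1) S
    rw [Phi_length]
    calc a * opt (S.map (Phi (n + 1))) ≤ a * ((n + 1) * opt S) := Nat.mul_le_mul_left a h4
      _ = (n + 1) * (a * opt S) := by ring
      _ < (n + 1) * (b * t.length) := Nat.mul_lt_mul_of_pos_left (h3 t ht) (by omega)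
      _ = b * ((n + 1) * t.length) := by ring

/-- the form with a non-strict inequality -/
theorem exists_large_le {a b : ℕ} {S : List (List ℕ)} {t s : List ℕ} (hs : s ∈ S) (hne : s ≠ [])
    (h1 : Reduced S S) (h2 : Output S t) (h3 : a * opt S ≤ b * t.length) (n : ℕ) :
    ∃ (S' : List (List ℕ)) (t' : List ℕ), Reduced S' S' ∧ Output S' t' ∧ n ≤ opt S' ∧
      a * opt S' ≤ b * t'.length := by
  have hl : 1 ≤ s.length := List.length_pos_of_ne_nil hne
  refine ⟨S.map (Phi (n + 1)), Phi (n + 1) t, reduced_blow (by omega) h1,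
    output_blow (by omega) h2, ?_, ?_⟩
  · have := le_opt_blow (n + 1) hs
    nlinarith
  · have h4 := opt_blow_le (n + 1) S
    rw [Phi_length]
    calc a * opt (S.map (Phi (n + 1))) ≤ a * ((n + 1) * opt S) := Nat.mul_le_mul_left a h4
      _ = (n + 1) * (a * opt S) := by ring
      _ ≤ (n + 1) * (b * t.length) := Nat.mul_le_mul_left _ h3
      _ = b * ((n + 1) * t.length) := by ring

/-- the bound `2 * opt + C` fails for every constant `C` -/
theorem exists_add {S : List (List ℕ)} {t : List ℕ}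
    (h1 : Reduced S S) (h2 : Output S t) (h3 : 2 * opt S < t.length) (C : ℕ) :
    ∃ (S' : List (List ℕ)) (t' : List ℕ), Reduced S' S' ∧ Output S' t' ∧
      2 * opt S' + C < t'.length := by
  refine ⟨S.map (Phi (C + 1)), Phi (C + 1) t, reduced_blow (by omega) h1,
    output_blow (by omega) h2, ?_⟩
  have h4 := opt_blow_le (C + 1) S
  rw [Phi_length]
  nlinarith

end Vale.Agent.P333.H752
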